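import Mathlib

/-!
# P061: multigraphs, edge-connectivity, spanning trees, thinness
-/

set_option autoImplicit false

namespace Vale.Agent.P061

open Set

/-- a loopless multigraph with vertex set `V` and edge set `E` -/
structure MGraph (V E : Type) where
  /-- the two endpoints of an edge -/
  ends : E → Sym2 V
  loopless : ∀ e, ¬ (ends e).IsDiag

variable {V E : Type}

/-- the cut `δ_G(S)`: the edges with exactly one endpoint in `S` -/
def MGraph.cut (G : MGraph V E) (S : Set V) : Set E :=
  {e | ∃ u v, G.ends e = s(u, v) ∧ u ∈ S ∧ v ∉ S}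

/-- `k`-edge-connectivity -/
def MGraph.EdgeConnected (G : MGraph V E) (k : ℕ) : Prop :=
  ∀ S : Set V, S.Nonempty → S ≠ univ → k ≤ (G.cut S).ncard

/-- the simple graph whose edges are the endpoint pairs of the edges in `T` -/
def MGraph.sub (G : MGraph V E) (T : Set E) : SimpleGraph V where
  Adj u v := ∃ e ∈ T, G.ends e = s(u, v)
  symm := ⟨fun u v ⟨e, he, h⟩ => ⟨e, he, by rw [h, Sym2.eq_swap]⟩⟩
  loopless := ⟨fun u ⟨e, _, h⟩ => G.loopless e (by rw [h]; exact rfl)⟩

/-- `T` is (the edge set of) a spanning tree: it has `|V| - 1` edge copies and connects `V`. -/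
def MGraph.IsSpanningTree (G : MGraph V E) (T : Set E) : Prop :=
  (G.sub T).Connected ∧ T.ncard + 1 = Nat.card V

/-- `α`-thin edge sets -/
def MGraph.IsThin (G : MGraph V E) (T : Set E) (α : ℝ) : Prop :=
  ∀ S : Set V, S.Nonempty → S ≠ univ → ((T ∩ G.cut S).ncard : ℝ) ≤ α * ((G.cut S).ncard : ℝ)

end Vale.Agent.P061
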