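import Mathlib

/-!
# P061: dense graphs, the partition
-/

set_option autoImplicit false

namespace Vale.Agent.P061

open Finset

section
variable {V : Type} [Fintype V] [DecidableEq V]

/-- total weight between two sets -/
noncomputable def ee (w : V → V → ℝ) (A B : Finset V) : ℝ := ∑ u ∈ A, ∑ v ∈ B, w u v

/-- classes of a labelling -/
def cls (f : V → Option V) (c : Option V) : Finset V := univ.filter fun v => f v = c

/-- relabelling -/
def rel (f : V → Option V) (A : Finset V) (c : Option V) : V → Option V :=
  fun v => if v ∈ A then c else f v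

/-- twice the weight between different classes -/
noncomputable def XX (w : V → V → ℝ) (f : V → Option V) : ℝ :=
  ∑ u, ∑ v, if f u ≠ f v then w u v else 0

lemma mem_cls {f : V → Option V} {c : Option V} {v : V} : v ∈ cls f c ↔ f v = c := by
  simp [cls]

lemma cls_rel (f : V → Option V) (A : Finset V) (c x : Option V) :
    cls (rel f A c) x = if x = c then cls f x ∪ A else cls f x \ A := by
  ext v
  rw [mem_cls]
  unfold rel
  by_cases hv : v ∈ A
  · by_cases hx : x = c
    · simp [hv, hx]
    · rw [if_pos hv, if_neg hx]
      simp [hv, Ne.symm hx]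
  · by_cases hx : x = c
    · simp [hv, hx, mem_cls]
    · simp [hv, hx, mem_cls]

lemma ee_eq (w : V → V → ℝ) (A : Finset V) (f : V → Option V) (c : Option V) :
    ee w A (cls f c \ A) = ∑ u, ∑ v, if u ∈ A ∧ v ∉ A ∧ f v = c then w u v else 0 := by
  unfold ee
  rw [← Finset.sum_filter_add_sum_filter_not univ (fun u => u ∈ A)
    (fun u => ∑ v, if u ∈ A ∧ v ∉ A ∧ f v = c then w u v else 0)]
  have h1 : ∑ u ∈ univ.filter (fun u => ¬ u ∈ A),
      (∑ v, if u ∈ A ∧ v ∉ A ∧ f v = c then w u v else 0) = 0 := by
    refine Finset.sum_eq_zero fun u hu => ?_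
    rw [mem_filter] at hu
    refine Finset.sum_eq_zero fun v _ => if_neg fun h => hu.2 h.1
  rw [h1, add_zero, Finset.filter_mem_eq_inter, Finset.univ_inter]
  refine Finset.sum_congr rfl fun u hu => ?_
  rw [← Finset.sum_filter]
  refine Finset.sum_congr ?_ fun _ _ => rfl
  ext v
  simp only [mem_sdiff, mem_cls, mem_filter, mem_univ, true_and]
  tauto

lemma XX_rel (w : V → V → ℝ) (hs : ∀ u v, w u v = w v u) (f : V → Option V) (A : Finset V)
    (c c' : Option V) (hA : A ⊆ cls f c) :
    XX w (rel f A c') = XX w f + 2 * (ee w A (cls f c \ A) - ee w A (cls f c' \ A)) := by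
  have hfc : ∀ u ∈ A, f u = c := fun u hu => mem_cls.mp (hA hu)
  have e2 : ∀ x : Option V, ∑ u, ∑ v, (if v ∈ A ∧ u ∉ A ∧ f u = x then w u v else 0) =
      ee w A (cls f x \ A) := by
    intro x
    rw [ee_eq, Finset.sum_comm]
    refine Finset.sum_congr rfl fun u _ => Finset.sum_congr rfl fun v _ => ?_
    rw [hs v u]
  have key : ∀ u v, (if rel f A c' u ≠ rel f A c' v then w u v else 0) =
      (if f u ≠ f v then w u v else 0)
      + ((if u ∈ A ∧ v ∉ A ∧ f v = c then w u v else 0) -
        (if u ∈ A ∧ v ∉ A ∧ f v = c' then w u v else 0))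
      + ((if v ∈ A ∧ u ∉ A ∧ f u = c then w u v else 0) -
        (if v ∈ A ∧ u ∉ A ∧ f u = c' then w u v else 0)) := by
    intro u v
    unfold rel
    by_cases hu : u ∈ A
    · by_cases hv : v ∈ A
      · simp [hu, hv, hfc u hu, hfc v hv]
      · have h1 := hfc u hu
        simp only [hu, hv, h1, if_true, if_false, true_and, not_false_eq_true, false_and,
          not_true_eq_false, sub_zero, add_zero]
        by_cases h2 : f v = c
        · by_cases h3 : f v = c'
          · have h4 : c = c' := h2.symm.trans h3
            simp [h2, h4]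
          · have h4 : c' ≠ f v := fun h => h3 h.symm
            simp [h2, h3, h4]
            rw [if_neg (fun h => h3 (h2.trans h.symm)), if_neg (fun h => h3 (h2.trans h))]
            simp
        · have h4 : c ≠ f v := fun h => h2 h.symm
          by_cases h3 : f v = c'
          · simp [h3]
            rw [h3] at h4
            simp [h4, Ne.symm h4]
          · have h5 : c' ≠ f v := fun h => h3 h.symm
            simp [h2, h3, h4, h5]
    · by_cases hv : v ∈ A
      · have h1 := hfc v hv
        simp only [hu, hv, h1, if_true, if_false, true_and, not_false_eq_true, false_and,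
          not_true_eq_false, sub_zero, add_zero]
        by_cases h2 : f u = c
        · by_cases h3 : f u = c'
          · have h4 : c = c' := h2.symm.trans h3
            simp [h2, h4]
          · have h4 : ¬ c = c' := fun h => h3 (h2.trans h)
            simp [h2, h4]
        · by_cases h3 : f u = c'
          · have h4 : ¬ c' = c := fun h => h2 (h3.trans h)
            simp [h3, h4]
          · simp [h2, h3]
      · simp [hu, hv]
  unfold XX
  simp_rw [key, Finset.sum_add_distrib, Finset.sum_sub_distrib]
  rw [← ee_eq, ← ee_eq, e2, e2]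
  ring

end

end Vale.Agent.P061
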