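import Vale.Agent.P061.Part

/-!
# P061: dense graphs, the partition into expanding classes
-/

set_option autoImplicit false

namespace Vale.Agent.P061

open Finset

section
variable {V : Type} [Fintype V] [DecidableEq V]

/-- hypotheses on the weights -/
structure Dn (w : V → V → ℝ) (μ K δ : ℝ) : Prop where
  symm : ∀ u v, w u v = w v u
  nonneg : ∀ u v, 0 ≤ w u v
  le : ∀ u v, w u v ≤ μ
  cut : ∀ S : Finset V, S.Nonempty → S ≠ univ → K ≤ ee w S Sᶜ
  mu : 0 < μ
  d0 : 0 < δ
  d1 : δ ≤ 1
  dK : δ * μ * (Fintype.card V : ℝ) ≤ K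

omit [Fintype V] in
lemma ee_union (w : V → V → ℝ) (A B C : Finset V) (h : Disjoint B C) :
    ee w A (B ∪ C) = ee w A B + ee w A C := by
  unfold ee
  rw [← Finset.sum_add_distrib]
  exact Finset.sum_congr rfl fun u _ => Finset.sum_union h

omit [Fintype V] [DecidableEq V] in
lemma ee_nonneg {w : V → V → ℝ} (h0 : ∀ u v, 0 ≤ w u v) (A B : Finset V) : 0 ≤ ee w A B :=
  Finset.sum_nonneg fun u _ => Finset.sum_nonneg fun v _ => h0 u v

omit [Fintype V] [DecidableEq V] in
lemma ee_mono {w : V → V → ℝ} (h0 : ∀ u v, 0 ≤ w u v) {A B A' B' : Finset V} (hA : A ⊆ A')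
    (hB : B ⊆ B') : ee w A B ≤ ee w A' B' := by
  unfold ee
  calc ∑ u ∈ A, ∑ v ∈ B, w u v ≤ ∑ u ∈ A, ∑ v ∈ B', w u v :=
        Finset.sum_le_sum fun u _ => Finset.sum_le_sum_of_subset_of_nonneg hB
          fun v _ _ => h0 u v
    _ ≤ _ := Finset.sum_le_sum_of_subset_of_nonneg hA
        fun u _ _ => Finset.sum_nonneg fun v _ => h0 u v

omit [Fintype V] [DecidableEq V] in
lemma ee_comm {w : V → V → ℝ} (hs : ∀ u v, w u v = w v u) (A B : Finset V) :
    ee w A B = ee w B A := by
  unfold ee
  rw [Finset.sum_comm]
  exact Finset.sum_congr rfl fun u _ => Finset.sum_congr rfl fun v _ => hs v u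

/-- small sets have many outgoing edges -/
lemma small {w : V → V → ℝ} {μ K δ : ℝ} (h : Dn w μ K δ) (A : Finset V) (hA : A ≠ univ) :
    (A.card : ℝ) * (K - A.card * μ) ≤ ee w A Aᶜ := by
  have h1 : ∀ u ∈ A, K - A.card * μ ≤ ∑ v ∈ Aᶜ, w u v := by
    intro u hu
    have h2 := h.cut {u} (singleton_nonempty u) (fun h' => hA (by
      rw [eq_univ_iff_forall]
      intro x
      have : x ∈ ({u} : Finset V) := h' ▸ mem_univ x
      rw [mem_singleton] at this
      rwa [this]))
    unfold ee at h2
    rw [Finset.sum_singleton] at h2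
    have h3 : ({u} : Finset V)ᶜ ⊆ Aᶜ ∪ A := by
      intro x _
      rw [Finset.union_comm, Finset.union_compl]
      exact mem_univ x
    have h4 : ∑ v ∈ ({u} : Finset V)ᶜ, w u v ≤ ∑ v ∈ Aᶜ, w u v + ∑ v ∈ A, w u v := by
      rw [← Finset.sum_union (disjoint_compl_left)]
      exact Finset.sum_le_sum_of_subset_of_nonneg h3 fun v _ _ => h.nonneg u v
    have h5 : ∑ v ∈ A, w u v ≤ A.card * μ := by
      calc ∑ v ∈ A, w u v ≤ ∑ v ∈ A, μ := Finset.sum_le_sum fun v _ => h.le u v
        _ = A.card * μ := by rw [Finset.sum_const, nsmul_eq_mul]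
    linarith
  unfold ee
  calc (A.card : ℝ) * (K - A.card * μ) = ∑ u ∈ A, (K - A.card * μ) := by
        rw [Finset.sum_const, nsmul_eq_mul]
    _ ≤ _ := Finset.sum_le_sum h1

/-- decomposition of the complement of a class -/
lemma ee_classes (w : V → V → ℝ) (A : Finset V) (f : V → Option V) (c : Option V) :
    ee w A (cls f c)ᶜ = ∑ c' ∈ (univ.image f).erase c, ee w A (cls f c') := by
  unfold ee
  rw [Finset.sum_comm' (s := (univ.image f).erase c) (t := fun _ => A)
    (t' := A) (s' := fun _ => (univ.image f).erase c) (by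
      intro x y
      tauto)]
  refine Finset.sum_congr rfl fun u _ => ?_
  have hm : ∀ v ∈ (cls f c)ᶜ, f v ∈ (univ.image f).erase c := by
    intro v hv
    rw [mem_compl, mem_cls] at hv
    exact mem_erase.mpr ⟨hv, mem_image_of_mem f (mem_univ v)⟩
  rw [← Finset.sum_fiberwise_of_maps_to hm]
  refine Finset.sum_congr rfl fun c' hc' => Finset.sum_congr ?_ fun _ _ => rfl
  ext v
  rw [mem_filter, mem_compl, mem_cls, mem_cls]
  constructor
  · exact fun h => h.2
  · intro h
    exact ⟨fun h' => (mem_erase.mp hc').1 (h.symm.trans h'), h⟩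

/-- all classes have at least `b` elements -/
def Fea (b : ℝ) (f : V → Option V) : Prop := ∀ v, b ≤ ((cls f (f v)).card : ℝ)

/-- the potential -/
noncomputable def Φ (w : V → V → ℝ) (Λ : ℝ) (f : V → Option V) : ℝ :=
  XX w f - Λ * ((univ.image f).card : ℝ)

lemma Fea.cls {b : ℝ} {f : V → Option V} (h : Fea b f) {c : Option V} (hc : c ∈ univ.image f) :
    b ≤ ((cls f c).card : ℝ) := by
  rw [mem_image] at hc
  obtain ⟨v, -, rfl⟩ := hc
  exact h v

lemma card_classes {b : ℝ} {f : V → Option V} (h : Fea b f) :
    ((univ.image f).card : ℝ) * b ≤ Fintype.card V := by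
  have h1 : Fintype.card V = ∑ c ∈ univ.image f, (Vale.Agent.P061.cls f c).card := by
    rw [← Finset.card_univ]
    exact Finset.card_eq_sum_card_image f univ
  rw [h1]
  push_cast
  calc ((univ.image f).card : ℝ) * b = ∑ c ∈ univ.image f, b := by
        rw [Finset.sum_const, nsmul_eq_mul]
    _ ≤ _ := Finset.sum_le_sum fun c hc => h.cls hc

theorem exists_part {w : V → V → ℝ} {μ K δ : ℝ} (h : Dn w μ K δ) (hV : 2 ≤ Fintype.card V) :
    ∃ f : V → Option V, ((univ.image f).card : ℝ) ≤ 8 / δ ∧
      ∀ c, ∀ A ⊆ cls f c, A.Nonempty → A ≠ cls f c →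
        δ ^ 3 / 100 * (μ * Fintype.card V) * min (A.card : ℝ) ((cls f c \ A).card : ℝ) ≤
          ee w A (cls f c \ A) := by
  classical
  set n : ℝ := (Fintype.card V : ℝ) with hn
  have hn2 : (2 : ℝ) ≤ n := by rw [hn]; exact_mod_cast hV
  have hμ := h.mu
  have hδ := h.d0
  have hδ1 := h.d1
  set b : ℝ := δ * n / 8 with hb
  set Λ : ℝ := δ ^ 3 * μ * n ^ 2 / 50 with hΛ
  have hb0 : 0 < b := by positivity
  have hΛ0 : 0 < Λ := by positivity
  have hne : (univ.filter (fun f : V → Option V => Fea b f)).Nonempty := by
    refine ⟨fun _ => none, ?_⟩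
    rw [mem_filter]
    refine ⟨mem_univ _, fun v => ?_⟩
    have : cls (fun _ : V => (none : Option V)) none = univ := by
      ext x
      simp [mem_cls]
    rw [this, Finset.card_univ, ← hn]
    rw [hb]
    nlinarith
  obtain ⟨f, hf, hmin⟩ := Finset.exists_min_image _ (Φ w Λ) hne
  rw [mem_filter] at hf
  have hF : Fea b f := hf.2
  have hmin' : ∀ g, Fea b g → Φ w Λ f ≤ Φ w Λ g := fun g hg =>
    hmin g (mem_filter.mpr ⟨mem_univ _, hg⟩)
  have hm : ((univ.image f).card : ℝ) ≤ 8 / δ := by
    have h1 := card_classes hF
    rw [le_div_iff₀ hδ]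
    rw [hb, ← hn] at h1
    have h2 : (((univ.image f).card : ℝ) * δ) * n ≤ 8 * n := by nlinarith
    exact le_of_mul_le_mul_right h2 (by linarith)
  have hne' : ∀ c, c ∈ univ.image f ↔ (cls f c).Nonempty := by
    intro c
    rw [mem_image]
    constructor
    · rintro ⟨v, -, rfl⟩
      exact ⟨v, mem_cls.mpr rfl⟩
    · rintro ⟨v, hv⟩
      exact ⟨v, mem_univ v, mem_cls.mp hv⟩
  have hcls_n : ∀ A : Finset V, (A.card : ℝ) ≤ n := fun A => by
    rw [hn]
    exact_mod_cast Finset.card_le_univ A
  -- general inequality for relabelling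
  have hrel : ∀ (c c' : Option V) (A : Finset V), A ⊆ cls f c → c ≠ c' → Fea b (rel f A c') →
      Λ * (((univ.image (rel f A c')).card : ℝ) - ((univ.image f).card : ℝ)) ≤
        2 * (ee w A (cls f c \ A) - ee w A (cls f c')) := by
    intro c c' A hA hcc hfea
    have h1 := hmin' _ hfea
    unfold Φ at h1
    rw [XX_rel w h.symm f A c c' hA] at h1
    have h2 : cls f c' \ A = cls f c' := by
      rw [Finset.sdiff_eq_self_iff_disjoint, Finset.disjoint_left]
      intro x hx hx'
      exact hcc ((mem_cls.mp (hA hx')).symm.trans (mem_cls.mp hx))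
    rw [h2] at h1
    linarith
  -- claim 1
  have claim1 : ∀ c ∈ univ.image f, 2 * b ≤ ((cls f c).card : ℝ) := by
    intro c hc
    by_contra hlt
    push Not at hlt
    have hCne : cls f c ≠ univ := by
      intro h'
      rw [h', Finset.card_univ, ← hn, hb] at hlt
      nlinarith
    have h1 : ∀ c' ∈ (univ.image f).erase c, ee w (cls f c) (cls f c') ≤ Λ / 2 := by
      intro c' hc'
      rw [mem_erase] at hc'
      have hfea : Fea b (rel f (cls f c) c') := by
        intro v
        rw [cls_rel]
        split_ifs with hx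
        · rw [hx]
          exact (hF.cls hc'.2).trans (by exact_mod_cast Finset.card_le_card subset_union_left)
        · have hv : v ∉ cls f c := by
            intro hv
            apply hx
            unfold rel
            rw [if_pos hv]
          have h2 : rel f (cls f c) c' v = f v := by
            unfold rel
            rw [if_neg hv]
          rw [h2]
          have h3 : cls f (f v) \ cls f c = cls f (f v) := by
            rw [Finset.sdiff_eq_self_iff_disjoint, Finset.disjoint_left]
            intro x hx1 hx2
            apply hv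
            rw [mem_cls] at hx1 hx2 ⊢
            rw [← hx1, hx2]
          rw [h3]
          exact hF v
      have h2 := hrel c c' (cls f c) subset_rfl (Ne.symm hc'.1) hfea
      rw [sdiff_self] at h2
      have h3 : ee w (cls f c) (∅ : Finset V) = 0 := by
        unfold ee
        simp
      have h4 : univ.image f ⊆ insert c (univ.image (rel f (cls f c) c')) := by
        intro x hx
        rw [mem_image] at hx
        obtain ⟨v, -, rfl⟩ := hx
        rw [mem_insert]
        by_cases hv : v ∈ cls f c
        · left
          exact mem_cls.mp hv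
        · right
          rw [mem_image]
          refine ⟨v, mem_univ v, ?_⟩
          unfold rel
          rw [if_neg hv]
      have h5 : (univ.image f).card ≤ (univ.image (rel f (cls f c) c')).card + 1 :=
        (Finset.card_le_card h4).trans (Finset.card_insert_le _ _)
      have h6 : ((univ.image f).card : ℝ) ≤ ((univ.image (rel f (cls f c) c')).card : ℝ) + 1 := by
        exact_mod_cast h5
      change Λ * _ ≤ 2 * (ee w (cls f c) (∅ : Finset V) - _) at h2
      rw [h3] at h2
      nlinarith
    have h2 : ee w (cls f c) (cls f c)ᶜ ≤ ((univ.image f).card : ℝ) * (Λ / 2) := by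
      rw [ee_classes]
      calc ∑ c' ∈ (univ.image f).erase c, ee w (cls f c) (cls f c')
          ≤ ∑ c' ∈ (univ.image f).erase c, Λ / 2 := Finset.sum_le_sum h1
        _ = (((univ.image f).erase c).card : ℝ) * (Λ / 2) := by
            rw [Finset.sum_const, nsmul_eq_mul]
        _ ≤ ((univ.image f).card : ℝ) * (Λ / 2) := by
            gcongr
            exact Finset.erase_subset _ _
    have h3 := small h (cls f c) hCne
    have h4 : b ≤ ((cls f c).card : ℝ) := hF.cls hc
    set x : ℝ := ((cls f c).card : ℝ) with hx
    have h5 : ((univ.image f).card : ℝ) * (Λ / 2) ≤ 8 / δ * (Λ / 2) := by gcongr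
    have h6 : 8 / δ * (Λ / 2) = 4 / 50 * (δ ^ 2 * μ * n ^ 2) := by
      rw [hΛ]
      field_simp
      ring
    have h7 : δ * μ * n ≤ K := h.dK
    have h8 : b * (δ * μ * n - 2 * b * μ) ≤ x * (K - x * μ) := by
      have h9 : 0 < δ * μ * n - 2 * b * μ := by
        rw [hb]
        have : 0 < δ * μ * n := by positivity
        nlinarith
      have h10 : δ * μ * n - 2 * b * μ ≤ K - x * μ := by nlinarith
      calc b * (δ * μ * n - 2 * b * μ) ≤ x * (δ * μ * n - 2 * b * μ) := by
            exact mul_le_mul_of_nonneg_right h4 h9.le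
        _ ≤ x * (K - x * μ) := mul_le_mul_of_nonneg_left h10 (by linarith)
    have h9 : b * (δ * μ * n - 2 * b * μ) = 3 / 32 * (δ ^ 2 * μ * n ^ 2) := by
      rw [hb]
      ring
    have h10 : 0 < δ ^ 2 * μ * n ^ 2 := by positivity
    linarith
  -- moving a small set
  have move : ∀ c, ∀ A ⊆ cls f c, A.Nonempty → A ≠ cls f c → b ≤ ((cls f c \ A).card : ℝ) →
      (A.card : ℝ) < b → δ ^ 3 / 100 * (μ * n) * (A.card : ℝ) ≤ ee w A (cls f c \ A) := by
    intro c A hA hAne hAc hbig hsmall
    have hc : c ∈ univ.image f := (hne' c).mpr (hAne.mono hA)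
    have hAu : A ≠ univ := by
      intro h'
      rw [h', Finset.card_univ, ← hn, hb] at hsmall
      nlinarith
    have h1 : ∀ c' ∈ (univ.image f).erase c, ee w A (cls f c') ≤ ee w A (cls f c \ A) := by
      intro c' hc'
      rw [mem_erase] at hc'
      have hcls' : ∀ x, x ≠ c → cls f x \ A = cls f x := by
        intro x hx
        rw [Finset.sdiff_eq_self_iff_disjoint, Finset.disjoint_left]
        intro y hy hy'
        exact hx ((mem_cls.mp hy).symm.trans (mem_cls.mp (hA hy')))
      have hfea : Fea b (rel f A c') := by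
        intro v
        rw [cls_rel]
        split_ifs with hx
        · rw [hx]
          exact (hF.cls hc'.2).trans (by exact_mod_cast Finset.card_le_card subset_union_left)
        · have hv : v ∉ A := by
            intro hv
            apply hx
            unfold rel
            rw [if_pos hv]
          have h2 : rel f A c' v = f v := by
            unfold rel
            rw [if_neg hv]
          rw [h2]
          by_cases hfv : f v = c
          · rw [hfv]
            exact hbig
          · rw [hcls' _ hfv]
            exact hF v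
      have h2 := hrel c c' A hA (Ne.symm hc'.1) hfea
      obtain ⟨y, hy, hyA⟩ : ∃ y ∈ cls f c, y ∉ A := by
        by_contra hcon
        push Not at hcon
        exact hAc (Subset.antisymm hA hcon)
      have h4 : univ.image f ⊆ univ.image (rel f A c') := by
        intro x hx
        rw [mem_image] at hx
        obtain ⟨v, -, rfl⟩ := hx
        rw [mem_image]
        by_cases hv : v ∈ A
        · refine ⟨y, mem_univ y, ?_⟩
          unfold rel
          rw [if_neg hyA, mem_cls.mp hy, mem_cls.mp (hA hv)]
        · refine ⟨v, mem_univ v, ?_⟩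
          unfold rel
          rw [if_neg hv]
      have h5 : ((univ.image f).card : ℝ) ≤ ((univ.image (rel f A c')).card : ℝ) := by
        exact_mod_cast Finset.card_le_card h4
      nlinarith
    set y : ℝ := ee w A (cls f c \ A) with hy
    have hy0 : 0 ≤ y := ee_nonneg h.nonneg _ _
    have h2 : ee w A (cls f c)ᶜ ≤ (((univ.image f).card : ℝ) - 1) * y := by
      rw [ee_classes]
      calc ∑ c' ∈ (univ.image f).erase c, ee w A (cls f c')
          ≤ ∑ c' ∈ (univ.image f).erase c, y := Finset.sum_le_sum h1
        _ = (((univ.image f).erase c).card : ℝ) * y := by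
            rw [Finset.sum_const, nsmul_eq_mul]
        _ = (((univ.image f).card : ℝ) - 1) * y := by
            rw [Finset.card_erase_of_mem hc]
            have : 1 ≤ (univ.image f).card := Finset.card_pos.mpr ⟨c, hc⟩
            push_cast [Nat.cast_sub this]
            ring
    have h3 : Aᶜ = (cls f c \ A) ∪ (cls f c)ᶜ := by
      ext x
      simp only [mem_compl, mem_union, mem_sdiff]
      constructor
      · intro hx
        by_cases hx2 : x ∈ cls f c
        · exact Or.inl ⟨hx2, hx⟩
        · exact Or.inr hx2
      · rintro (hx | hx)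
        · exact hx.2
        · exact fun hx' => hx (hA hx')
    have h4 : Disjoint (cls f c \ A) (cls f c)ᶜ := by
      rw [Finset.disjoint_left]
      intro x hx hx'
      exact (mem_compl.mp hx') (mem_sdiff.mp hx).1
    have h5 := small h A hAu
    rw [h3, ee_union w A _ _ h4] at h5
    set a : ℝ := (A.card : ℝ) with ha
    have h6 : a * (K - a * μ) ≤ ((univ.image f).card : ℝ) * y := by linarith
    have h7 : ((univ.image f).card : ℝ) * y ≤ 8 / δ * y := by gcongr
    have h8 : a * (7 / 8 * (δ * μ * n)) ≤ a * (K - a * μ) := by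
      apply mul_le_mul_of_nonneg_left _ (by positivity)
      have h9 := h.dK
      have h10 : a * μ ≤ b * μ := by nlinarith
      rw [hb] at h10
      rw [← hn] at h9
      linarith
    have h9 : a * (7 / 8 * (δ * μ * n)) ≤ 8 / δ * y := by linarith
    have h10 : δ * (a * (7 / 8 * (δ * μ * n))) ≤ 8 * y := by
      have := mul_le_mul_of_nonneg_left h9 hδ.le
      calc δ * (a * (7 / 8 * (δ * μ * n))) ≤ δ * (8 / δ * y) := this
        _ = 8 * y := by field_simp
    have h11 : δ ^ 3 ≤ δ ^ 2 := by
      calc δ ^ 3 = δ ^ 2 * δ := by ring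
        _ ≤ δ ^ 2 * 1 := by gcongr
        _ = δ ^ 2 := mul_one _
    have h12 : 0 ≤ a * μ * n := by positivity
    nlinarith [mul_le_mul_of_nonneg_right h11 h12]
  refine ⟨f, hm, ?_⟩
  intro c A hA hAne hAc
  have hc : c ∈ univ.image f := (hne' c).mpr (hAne.mono hA)
  have hcard : (A.card : ℝ) + ((cls f c \ A).card : ℝ) = ((cls f c).card : ℝ) := by
    have := Finset.card_sdiff_add_card_eq_card hA
    have h' : ((cls f c \ A).card : ℝ) + (A.card : ℝ) = ((cls f c).card : ℝ) := by
      exact_mod_cast this
    linarith
  have hcoef : 0 ≤ δ ^ 3 / 100 * (μ * n) := by positivity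
  rcases lt_or_ge (A.card : ℝ) b with h1 | h1
  · have h2 : b ≤ ((cls f c \ A).card : ℝ) := by linarith [claim1 c hc]
    calc δ ^ 3 / 100 * (μ * n) * min (A.card : ℝ) ((cls f c \ A).card : ℝ)
        ≤ δ ^ 3 / 100 * (μ * n) * (A.card : ℝ) :=
          mul_le_mul_of_nonneg_left (min_le_left _ _) hcoef
      _ ≤ _ := move c A hA hAne hAc h2 h1
  · rcases lt_or_ge ((cls f c \ A).card : ℝ) b with h2 | h2
    · have h3 : cls f c \ (cls f c \ A) = A := by
        rw [sdiff_sdiff_right_self]
        exact inf_eq_right.mpr hA
      have h4 : (cls f c \ A).Nonempty := by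
        rw [sdiff_nonempty]
        exact fun h' => hAc (Subset.antisymm hA h')
      have h5 : cls f c \ A ≠ cls f c := by
        intro h'
        obtain ⟨x, hx⟩ := hAne
        have hx' : x ∈ cls f c \ A := by
          rw [h']
          exact hA hx
        exact (mem_sdiff.mp hx').2 hx
      have h6 := move c (cls f c \ A) sdiff_subset h4 h5 (by rw [h3]; exact h1) h2
      rw [h3, ee_comm h.symm] at h6
      calc δ ^ 3 / 100 * (μ * n) * min (A.card : ℝ) ((cls f c \ A).card : ℝ)
          ≤ δ ^ 3 / 100 * (μ * n) * ((cls f c \ A).card : ℝ) :=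
            mul_le_mul_of_nonneg_left (min_le_right _ _) hcoef
        _ ≤ _ := h6
    · -- splitting
      obtain ⟨c', hc'⟩ : ∃ c' : Option V, c' ∉ univ.image f := by
        by_contra hcon
        push Not at hcon
        have h3 : (univ : Finset (Option V)) ⊆ univ.image f := fun x _ => hcon x
        have h4 := Finset.card_le_card h3
        rw [Finset.card_univ, Fintype.card_option] at h4
        have h5 : (univ.image f).card ≤ Fintype.card V := by
          rw [← Finset.card_univ]
          exact Finset.card_image_le
        omega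
      have hcc : c ≠ c' := fun h' => hc' (h' ▸ hc)
      have hempty : cls f c' = ∅ := by
        by_contra h'
        exact hc' ((hne' c').mpr (Finset.nonempty_of_ne_empty h'))
      have hfea : Fea b (rel f A c') := by
        intro v
        rw [cls_rel]
        split_ifs with hx
        · exact h1.trans (by exact_mod_cast Finset.card_le_card subset_union_right)
        · have hv : v ∉ A := by
            intro hv
            apply hx
            unfold rel
            rw [if_pos hv]
          have h3 : rel f A c' v = f v := by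
            unfold rel
            rw [if_neg hv]
          rw [h3]
          by_cases hfv : f v = c
          · rw [hfv]
            exact h2
          · have : cls f (f v) \ A = cls f (f v) := by
              rw [Finset.sdiff_eq_self_iff_disjoint, Finset.disjoint_left]
              intro y hy hy'
              exact hfv ((mem_cls.mp hy).symm.trans (mem_cls.mp (hA hy')))
            rw [this]
            exact hF v
      have h3 := hrel c c' A hA hcc hfea
      have h4 : ee w A (cls f c') = 0 := by
        rw [hempty]
        unfold ee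
        simp
      obtain ⟨y, hy, hyA⟩ : ∃ y ∈ cls f c, y ∉ A := by
        by_contra hcon
        push Not at hcon
        exact hAc (Subset.antisymm hA hcon)
      have h5 : insert c' (univ.image f) ⊆ univ.image (rel f A c') := by
        intro x hx
        rw [mem_insert] at hx
        rw [mem_image]
        rcases hx with rfl | hx
        · obtain ⟨z, hz⟩ := hAne
          refine ⟨z, mem_univ z, ?_⟩
          unfold rel
          rw [if_pos hz]
        · rw [mem_image] at hx
          obtain ⟨v, -, rfl⟩ := hx
          by_cases hv : v ∈ A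
          · refine ⟨y, mem_univ y, ?_⟩
            unfold rel
            rw [if_neg hyA, mem_cls.mp hy, mem_cls.mp (hA hv)]
          · refine ⟨v, mem_univ v, ?_⟩
            unfold rel
            rw [if_neg hv]
      have h6 : (univ.image f).card + 1 ≤ (univ.image (rel f A c')).card := by
        rw [← Finset.card_insert_of_notMem hc']
        exact Finset.card_le_card h5
      have h7 : ((univ.image f).card : ℝ) + 1 ≤ ((univ.image (rel f A c')).card : ℝ) := by
        exact_mod_cast h6
      rw [h4] at h3
      have h8 : Λ ≤ 2 * ee w A (cls f c \ A) := by nlinarith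
      have h9 : min (A.card : ℝ) ((cls f c \ A).card : ℝ) ≤ n :=
        (min_le_left _ _).trans (hcls_n A)
      calc δ ^ 3 / 100 * (μ * n) * min (A.card : ℝ) ((cls f c \ A).card : ℝ)
          ≤ δ ^ 3 / 100 * (μ * n) * n := mul_le_mul_of_nonneg_left h9 hcoef
        _ = Λ / 2 := by rw [hΛ]; ring
        _ ≤ _ := by linarith

end

end Vale.Agent.P061
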