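import Vale.Agent.P061.Part2

/-!
# P061: dense graphs, connected subgraphs of bounded degree
-/

set_option autoImplicit false

namespace Vale.Agent.P061

open Finset

section
variable {V : Type} [Fintype V] [DecidableEq V]

/-- the graph of a set of pairs -/
def gr (F : Finset (V × V)) : SimpleGraph V where
  Adj x y := x ≠ y ∧ ((x, y) ∈ F ∨ (y, x) ∈ F)
  symm := ⟨fun x y h => ⟨h.1.symm, h.2.symm⟩⟩
  loopless := ⟨fun x h => h.1 rfl⟩

omit [Fintype V] [DecidableEq V] in
lemma gr_mono {F F' : Finset (V × V)} (h : F ⊆ F') : gr F ≤ gr F' := by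
  intro x y hxy
  exact ⟨hxy.1, hxy.2.imp (fun h' => h h') (fun h' => h h')⟩

omit [Fintype V] [DecidableEq V] in
lemma gr_reach {F : Finset (V × V)} {x y : V} (h : (x, y) ∈ F) : (gr F).Reachable x y := by
  by_cases hxy : x = y
  · rw [hxy]
  · exact SimpleGraph.Adj.reachable ⟨hxy, Or.inl h⟩

/-- structure of a tree-like set of pairs on `U` -/
structure TS (w : V → V → ℝ) (D : ℕ) (U : Finset V) (F : Finset (V × V)) : Prop where
  card : F.card + 1 = U.card
  mem : ∀ p ∈ F, p.1 ∈ U ∧ p.2 ∈ U ∧ 0 < w p.1 p.2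
  out : ∀ u, (F.filter fun p => p.1 = u).card ≤ D
  inn : ∀ v, (F.filter fun p => p.2 = v).card ≤ 1
  conn : ∀ x ∈ U, ∀ y ∈ U, (gr F).Reachable x y

theorem grow {w : V → V → ℝ} {μ γ : ℝ} (D : ℕ) (hle : ∀ u v, w u v ≤ μ) (hμ : 0 < μ)
    (C : Finset V) (hC : C.Nonempty)
    (hexp : ∀ A ⊆ C, A.Nonempty → A ≠ C →
      γ * min (A.card : ℝ) ((C \ A).card : ℝ) ≤ ee w A (C \ A))
    (hD : μ * (Fintype.card V : ℝ) ≤ γ * D) :
    ∀ j, 1 ≤ j → j ≤ C.card → ∃ U ⊆ C, U.card = j ∧ ∃ F, TS w D U F := by
  intro j hj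
  induction j, hj using Nat.le_induction with
  | base =>
    intro _
    obtain ⟨x, hx⟩ := hC
    refine ⟨{x}, singleton_subset_iff.mpr hx, card_singleton x, ∅, ?_⟩
    refine ⟨by simp, by simp, by simp, by simp, ?_⟩
    intro y hy z hz
    rw [mem_singleton] at hy hz
    rw [hy, hz]
  | succ j hj ih =>
    intro hjC
    obtain ⟨U, hUC, hUj, F, hF⟩ := ih (by omega)
    have hUne : U.Nonempty := by
      rw [← Finset.card_pos]
      omega
    have hUC' : U ≠ C := by
      rintro rfl
      omega
    -- a vertex with free capacity and an edge leaving `U`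
    obtain ⟨u, hu, hout, v, hv, hw⟩ : ∃ u ∈ U, (F.filter fun p => p.1 = u).card < D ∧
        ∃ v ∈ C \ U, 0 < w u v := by
      by_contra hcon
      push Not at hcon
      set Sat := U.filter (fun u => (F.filter fun p => p.1 = u).card = D) with hSat
      have h1 : ee w U (C \ U) ≤ (Sat.card : ℝ) * (((C \ U).card : ℝ) * μ) := by
        unfold ee
        rw [← Finset.sum_filter_add_sum_filter_not U
          (fun u => (F.filter fun p => p.1 = u).card = D)]
        have h2 : ∑ u ∈ U.filter (fun u => ¬ (F.filter fun p => p.1 = u).card = D),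
            ∑ v ∈ C \ U, w u v ≤ 0 := by
          refine Finset.sum_nonpos fun u hu => Finset.sum_nonpos fun v hv => ?_
          rw [mem_filter] at hu
          exact hcon u hu.1 (lt_of_le_of_ne (hF.out u) hu.2) v hv
        have h3 : ∑ u ∈ Sat, ∑ v ∈ C \ U, w u v ≤ (Sat.card : ℝ) * (((C \ U).card : ℝ) * μ) := by
          calc ∑ u ∈ Sat, ∑ v ∈ C \ U, w u v ≤ ∑ u ∈ Sat, ((C \ U).card : ℝ) * μ := by
                refine Finset.sum_le_sum fun u _ => ?_
                calc ∑ v ∈ C \ U, w u v ≤ ∑ v ∈ C \ U, μ :=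
                      Finset.sum_le_sum fun v _ => hle u v
                  _ = _ := by rw [Finset.sum_const, nsmul_eq_mul]
            _ = _ := by rw [Finset.sum_const, nsmul_eq_mul]
        linarith
      have h4 : Sat.card * D ≤ F.card := by
        have h5 : ∑ u ∈ Sat, (F.filter fun p => p.1 = u).card ≤ F.card := by
          have h6 : ∑ u ∈ U, (F.filter fun p => p.1 = u).card = F.card :=
            (Finset.card_eq_sum_card_fiberwise fun p hp => (hF.mem p hp).1).symm
          rw [← h6]
          exact Finset.sum_le_sum_of_subset (filter_subset _ _)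
        have h7 : ∑ u ∈ Sat, (F.filter fun p => p.1 = u).card = Sat.card * D := by
          rw [Finset.sum_congr rfl fun u hu => (mem_filter.mp hu).2, Finset.sum_const,
            smul_eq_mul]
        omega
      have h5 : (Sat.card : ℝ) * D < U.card := by
        have h6 := hF.card
        have : Sat.card * D < U.card := by omega
        exact_mod_cast this
      have h6 := hexp U hUC hUne hUC'
      have h7 : 0 < ((C \ U).card : ℝ) := by
        have : (C \ U).Nonempty := by
          rw [sdiff_nonempty]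
          exact fun h' => hUC' (Subset.antisymm hUC h')
        exact_mod_cast Finset.card_pos.mpr this
      have h8 : (U.card : ℝ) * ((C \ U).card : ℝ) ≤
          (Fintype.card V : ℝ) * min (U.card : ℝ) ((C \ U).card : ℝ) := by
        have h9 : (U.card : ℝ) ≤ Fintype.card V := by exact_mod_cast Finset.card_le_univ U
        have h10 : ((C \ U).card : ℝ) ≤ Fintype.card V := by
          exact_mod_cast Finset.card_le_univ (C \ U)
        have h11 : (0 : ℝ) ≤ U.card := Nat.cast_nonneg _
        rcases min_cases (U.card : ℝ) ((C \ U).card : ℝ) with ⟨h12, -⟩ | ⟨h12, -⟩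
        · rw [h12]
          nlinarith
        · rw [h12]
          nlinarith
      have hmn : 0 < min (U.card : ℝ) ((C \ U).card : ℝ) := by
        apply lt_min _ h7
        exact_mod_cast Finset.card_pos.mpr hUne
      set mn : ℝ := min (U.card : ℝ) ((C \ U).card : ℝ) with hmnd
      have h13 : γ * mn ≤ (Sat.card : ℝ) * (((C \ U).card : ℝ) * μ) := h6.trans h1
      have hD0 : (0 : ℝ) ≤ D := Nat.cast_nonneg _
      have h14 : D * (γ * mn) ≤ D * ((Sat.card : ℝ) * (((C \ U).card : ℝ) * μ)) :=
        mul_le_mul_of_nonneg_left h13 hD0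
      have h15 : D * ((Sat.card : ℝ) * (((C \ U).card : ℝ) * μ)) <
          (U.card : ℝ) * (((C \ U).card : ℝ) * μ) := by
        have : ((Sat.card : ℝ) * D) * (((C \ U).card : ℝ) * μ) <
            (U.card : ℝ) * (((C \ U).card : ℝ) * μ) :=
          mul_lt_mul_of_pos_right h5 (by positivity)
        linarith
      have h16 : (U.card : ℝ) * (((C \ U).card : ℝ) * μ) ≤ (Fintype.card V : ℝ) * mn * μ := by
        have := mul_le_mul_of_nonneg_right h8 hμ.le
        linarith
      have h17 : μ * (Fintype.card V : ℝ) * mn ≤ γ * D * mn :=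
        mul_le_mul_of_nonneg_right hD hmn.le
      nlinarith
    rw [mem_sdiff] at hv
    have hvu : v ∉ U := hv.2
    have hnot : (u, v) ∉ F := fun h => hvu (hF.mem _ h).2.1
    refine ⟨insert v U, insert_subset_iff.mpr ⟨hv.1, hUC⟩, by
      rw [card_insert_of_notMem hvu, hUj], insert (u, v) F, ?_⟩
    refine ⟨?_, ?_, ?_, ?_, ?_⟩
    · rw [card_insert_of_notMem hnot, card_insert_of_notMem hvu]
      have := hF.card
      omega
    · intro p hp
      rw [mem_insert] at hp
      rcases hp with rfl | hp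
      · exact ⟨mem_insert_of_mem hu, mem_insert_self _ _, hw⟩
      · obtain ⟨h1, h2, h3⟩ := hF.mem p hp
        exact ⟨mem_insert_of_mem h1, mem_insert_of_mem h2, h3⟩
    · intro x
      rw [filter_insert]
      by_cases hx : u = x
      · subst hx
        rw [if_pos rfl]
        exact (card_insert_le _ _).trans hout
      · rw [if_neg hx]
        exact hF.out x
    · intro x
      rw [filter_insert]
      by_cases hx : v = x
      · subst hx
        rw [if_pos rfl]
        have h1 : F.filter (fun p => p.2 = v) = ∅ := by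
          rw [filter_eq_empty_iff]
          intro p hp h2
          exact hvu (h2 ▸ (hF.mem p hp).2.1)
        rw [h1]
        simp
      · rw [if_neg hx]
        exact hF.inn x
    · have hmono := gr_mono (subset_insert (u, v) F)
      have huv : (gr (insert (u, v) F)).Reachable u v := gr_reach (mem_insert_self _ _)
      have hxu : ∀ x ∈ insert v U, (gr (insert (u, v) F)).Reachable x u := by
        intro x hx
        rw [mem_insert] at hx
        rcases hx with rfl | hx
        · exact huv.symm
        · exact (hF.conn x hx u hu).mono hmono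
      intro x hx y hy
      exact (hxu x hx).trans (hxu y hy).symm

/-- the pairs separated by `S` -/
def cr (S : Finset V) (p : V × V) : Prop := (p.1 ∈ S ∧ p.2 ∉ S) ∨ (p.1 ∉ S ∧ p.2 ∈ S)

instance (S : Finset V) : DecidablePred (cr S) := fun p => by unfold cr; infer_instance

lemma touch {w : V → V → ℝ} {D : ℕ} {U : Finset V} {F : Finset (V × V)} (hF : TS w D U F)
    (G : Finset (V × V)) (hG : G ⊆ F) (E : Finset V) (h : ∀ p ∈ G, p.1 ∈ E ∨ p.2 ∈ E) :
    G.card ≤ E.card * (D + 1) := by
  have h1 : G ⊆ E.biUnion fun x => (F.filter fun p => p.1 = x) ∪ (F.filter fun p => p.2 = x) := by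
    intro p hp
    rw [mem_biUnion]
    rcases h p hp with h2 | h2
    · exact ⟨p.1, h2, mem_union_left _ (mem_filter.mpr ⟨hG hp, rfl⟩)⟩
    · exact ⟨p.2, h2, mem_union_right _ (mem_filter.mpr ⟨hG hp, rfl⟩)⟩
  refine (card_le_card h1).trans (card_biUnion_le_card_mul _ _ _ fun x _ => ?_)
  exact (card_union_le _ _).trans (add_le_add (hF.out x) (hF.inn x))

/-- crossing pairs of a class -/
lemma cross {w : V → V → ℝ} {D : ℕ} {C : Finset V} {F : Finset (V × V)} (hF : TS w D C F)
    (S : Finset V) :
    ((F.filter (cr S)).card : ℝ) ≤ ((D : ℝ) + 1) * min ((S ∩ C).card : ℝ) ((C \ (S ∩ C)).card : ℝ) := by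
  have h1 : (F.filter (cr S)).card ≤ (S ∩ C).card * (D + 1) := by
    refine touch hF _ (filter_subset _ _) _ fun p hp => ?_
    rw [mem_filter] at hp
    obtain ⟨h2, h3, -⟩ := hF.mem p hp.1
    rcases hp.2 with ⟨h4, -⟩ | ⟨-, h4⟩
    · exact Or.inl (mem_inter.mpr ⟨h4, h2⟩)
    · exact Or.inr (mem_inter.mpr ⟨h4, h3⟩)
  have h2 : (F.filter (cr S)).card ≤ (C \ (S ∩ C)).card * (D + 1) := by
    refine touch hF _ (filter_subset _ _) _ fun p hp => ?_
    rw [mem_filter] at hp
    obtain ⟨h2, h3, -⟩ := hF.mem p hp.1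
    rcases hp.2 with ⟨-, h4⟩ | ⟨h4, -⟩
    · exact Or.inr (mem_sdiff.mpr ⟨h3, fun h' => h4 (mem_inter.mp h').1⟩)
    · exact Or.inl (mem_sdiff.mpr ⟨h2, fun h' => h4 (mem_inter.mp h').1⟩)
  have h1' : ((F.filter (cr S)).card : ℝ) ≤ ((S ∩ C).card : ℝ) * ((D : ℝ) + 1) := by
    exact_mod_cast h1
  have h2' : ((F.filter (cr S)).card : ℝ) ≤ ((C \ (S ∩ C)).card : ℝ) * ((D : ℝ) + 1) := by
    exact_mod_cast h2
  rcases min_cases ((S ∩ C).card : ℝ) ((C \ (S ∩ C)).card : ℝ) with ⟨h12, -⟩ | ⟨h12, -⟩
  · rw [h12]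
    linarith
  · rw [h12]
    linarith

end

end Vale.Agent.P061
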