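import Vale.Agent.P061.Part3

/-!
# P061: dense graphs, the connected subgraph
-/

set_option autoImplicit false

namespace Vale.Agent.P061

open Finset

section
variable {V : Type} [Fintype V] [DecidableEq V]

theorem connect {w : V → V → ℝ} [Nonempty V] (f : V → Option V) (F₀ : Finset (V × V))
    (h₀ : ∀ x y, f x = f y → (gr F₀).Reachable x y)
    (hcut : ∀ S : Finset V, S.Nonempty → S ≠ univ → 0 < ee w S Sᶜ) :
    ∀ j, 1 ≤ j → j ≤ (univ.image f).card → ∃ J ⊆ univ.image f, J.card = j ∧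
      ∃ Q : Finset (V × V), Q.card + 1 ≤ j ∧ (∀ p ∈ Q, 0 < w p.1 p.2) ∧
        ∀ x y, f x ∈ J → f y ∈ J → (gr (F₀ ∪ Q)).Reachable x y := by
  intro j hj
  induction j, hj using Nat.le_induction with
  | base =>
    intro _
    obtain ⟨x⟩ := (inferInstance : Nonempty V)
    refine ⟨{f x}, singleton_subset_iff.mpr (mem_image_of_mem f (mem_univ x)),
      card_singleton _, ∅, by simp, by simp, ?_⟩
    intro y z hy hz
    rw [mem_singleton] at hy hz
    rw [union_empty]
    exact h₀ y z (hy.trans hz.symm)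
  | succ j hj ih =>
    intro hjm
    obtain ⟨J, hJ, hJj, Q, hQ, hQw, hconn⟩ := ih (by omega)
    set W : Finset V := univ.filter fun v => f v ∈ J with hW
    have hWne : W.Nonempty := by
      have : J.Nonempty := by
        rw [← Finset.card_pos]
        omega
      obtain ⟨c, hc⟩ := this
      obtain ⟨v, -, hv⟩ := mem_image.mp (hJ hc)
      exact ⟨v, mem_filter.mpr ⟨mem_univ v, hv ▸ hc⟩⟩
    have hWu : W ≠ univ := by
      intro h
      have h1 : univ.image f ⊆ J := by
        intro c hc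
        obtain ⟨v, -, rfl⟩ := mem_image.mp hc
        have : v ∈ W := h ▸ mem_univ v
        exact (mem_filter.mp this).2
      have := Finset.card_le_card h1
      omega
    have h1 := hcut W hWne hWu
    obtain ⟨u, hu, v, hv, hw⟩ : ∃ u ∈ W, ∃ v ∈ Wᶜ, 0 < w u v := by
      by_contra hcon
      push Not at hcon
      have : ee w W Wᶜ ≤ 0 := Finset.sum_nonpos fun u hu => Finset.sum_nonpos fun v hv =>
        hcon u hu v hv
      linarith
    have hu' : f u ∈ J := (mem_filter.mp hu).2
    have hv' : f v ∉ J := fun h => (mem_compl.mp hv) (mem_filter.mpr ⟨mem_univ v, h⟩)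
    refine ⟨insert (f v) J, insert_subset_iff.mpr ⟨mem_image_of_mem f (mem_univ v), hJ⟩, by
      rw [card_insert_of_notMem hv', hJj], insert (u, v) Q, by
      have := card_insert_le (u, v) Q
      omega, ?_, ?_⟩
    · intro p hp
      rw [mem_insert] at hp
      rcases hp with rfl | hp
      · exact hw
      · exact hQw p hp
    · have hmono : gr (F₀ ∪ Q) ≤ gr (F₀ ∪ insert (u, v) Q) :=
        gr_mono (union_subset_union_right (subset_insert _ _))
      have hmono0 : gr F₀ ≤ gr (F₀ ∪ insert (u, v) Q) := gr_mono subset_union_left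
      have huv : (gr (F₀ ∪ insert (u, v) Q)).Reachable u v :=
        gr_reach (mem_union_right _ (mem_insert_self _ _))
      have hxu : ∀ x, f x ∈ insert (f v) J → (gr (F₀ ∪ insert (u, v) Q)).Reachable x u := by
        intro x hx
        rw [mem_insert] at hx
        rcases hx with hx | hx
        · exact ((h₀ x v hx).mono hmono0).trans huv.symm
        · exact (hconn x u hx hu').mono hmono
      intro x y hx hy
      exact (hxu x hx).trans (hxu y hy).symm

lemma ee_split {w : V → V → ℝ} (h0 : ∀ u v, 0 ≤ w u v) (f : V → Option V) (S : Finset V) :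
    ∑ c ∈ univ.image f, ee w (S ∩ cls f c) (cls f c \ (S ∩ cls f c)) ≤ ee w S Sᶜ := by
  have h1 : ee w S Sᶜ = ∑ c ∈ univ.image f, ∑ u ∈ S.filter (fun u => f u = c),
      ∑ v ∈ Sᶜ, w u v := by
    unfold ee
    exact (Finset.sum_fiberwise_of_maps_to (fun u _ => mem_image_of_mem f (mem_univ u)) _).symm
  rw [h1]
  refine Finset.sum_le_sum fun c _ => ?_
  have h2 : S.filter (fun u => f u = c) = S ∩ cls f c := by
    ext x
    rw [mem_filter, mem_inter, mem_cls]
  rw [h2]
  unfold ee
  refine Finset.sum_le_sum fun u _ => ?_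
  refine Finset.sum_le_sum_of_subset_of_nonneg ?_ fun v _ _ => h0 u v
  intro x hx
  rw [mem_sdiff] at hx
  rw [mem_compl]
  exact fun h => hx.2 (mem_inter.mpr ⟨h, hx.1⟩)

lemma fin_num {δ K E M y D m : ℝ} (hδ : 0 < δ) (hδ1 : δ ≤ 1) (hK : 0 < K) (hKE : K ≤ E)
    (hM0 : 0 ≤ M) (h2 : δ ^ 3 / 100 * y * M ≤ E) (h3 : K ≤ y) (hD2 : D < 100 / δ ^ 3 + 1)
    (hm : m ≤ 8 / δ) : (D + 1) * M + m ≤ 11000 / δ ^ 6 / K * E := by
  have hδ3 : 0 < δ ^ 3 := by positivity
  have h8 : 0 < E := lt_of_lt_of_le hK hKE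
  have h4 : M ≤ 100 / δ ^ 3 / K * E := by
    have h5 : δ ^ 3 / 100 * K * M ≤ E := by
      refine le_trans ?_ h2
      gcongr
    rw [div_div, div_mul_eq_mul_div, le_div_iff₀ (by positivity)]
    have h6 : M * (δ ^ 3 * K) = 100 * (δ ^ 3 / 100 * K * M) := by ring
    rw [h6]
    linarith
  have h5 : D + 1 ≤ 102 / δ ^ 3 := by
    have h6 : δ ^ 3 ≤ 1 := pow_le_one₀ hδ.le hδ1
    have h7 : 2 ≤ 2 / δ ^ 3 := by
      rw [le_div_iff₀ hδ3]
      linarith
    have h8 : 102 / δ ^ 3 = 100 / δ ^ 3 + 2 / δ ^ 3 := by ring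
    rw [h8]
    linarith
  have h6 : m ≤ 8 / δ ^ 6 / K * E := by
    have h7 : 8 / δ ≤ 8 / δ ^ 6 := by
      gcongr
      calc δ ^ 6 = δ ^ 5 * δ := by ring
        _ ≤ 1 * δ := by
            gcongr
            exact pow_le_one₀ hδ.le hδ1
        _ = δ := one_mul δ
    have h8 : 1 ≤ E / K := by
      rw [le_div_iff₀ hK]
      linarith
    calc m ≤ 8 / δ ^ 6 := hm.trans h7
      _ ≤ 8 / δ ^ 6 * (E / K) := le_mul_of_one_le_right (by positivity) h8
      _ = 8 / δ ^ 6 / K * E := by ring
  have h7 : (D + 1) * M ≤ 10200 / δ ^ 6 / K * E := by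
    calc (D + 1) * M ≤ 102 / δ ^ 3 * (100 / δ ^ 3 / K * E) := by gcongr
      _ = 10200 / δ ^ 6 / K * E := by
          field_simp
          ring
  have h12 : 0 ≤ 1 / δ ^ 6 / K * E := by positivity
  have h10 : 10200 / δ ^ 6 / K * E = 10200 * (1 / δ ^ 6 / K * E) := by ring
  have h13 : 8 / δ ^ 6 / K * E = 8 * (1 / δ ^ 6 / K * E) := by ring
  have h11 : 11000 / δ ^ 6 / K * E = 11000 * (1 / δ ^ 6 / K * E) := by ring
  rw [h11]
  rw [h10] at h7
  rw [h13] at h6
  linarith

theorem core {w : V → V → ℝ} {μ K δ : ℝ} (h : Dn w μ K δ) (hV : 2 ≤ Fintype.card V)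
    (hK : 0 < K) :
    ∃ F : Finset (V × V), (∀ p ∈ F, 0 < w p.1 p.2) ∧ (gr F).Connected ∧
      ∀ S : Finset V, S.Nonempty → S ≠ univ →
        ((F.filter (cr S)).card : ℝ) ≤ 11000 / δ ^ 6 / K * ee w S Sᶜ := by
  classical
  obtain ⟨f, hm, hexp⟩ := exists_part h hV
  have : Nonempty V := Fintype.card_pos_iff.mp (by omega)
  have hδ := h.d0
  have hδ1 := h.d1
  have hμ := h.mu
  have hn2 : (2 : ℝ) ≤ (Fintype.card V : ℝ) := by exact_mod_cast hV
  set n : ℝ := (Fintype.card V : ℝ) with hn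
  set D : ℕ := ⌈100 / δ ^ 3⌉₊ with hD
  have hD1 : 100 / δ ^ 3 ≤ (D : ℝ) := Nat.le_ceil _
  have hD2 : (D : ℝ) < 100 / δ ^ 3 + 1 := Nat.ceil_lt_add_one (by positivity)
  have hδ3 : 0 < δ ^ 3 := by positivity
  have hgrow : ∀ c ∈ univ.image f, ∃ F, TS w D (cls f c) F := by
    intro c hc
    have hne : (cls f c).Nonempty := by
      obtain ⟨v, -, hv⟩ := mem_image.mp hc
      exact ⟨v, mem_cls.mpr hv⟩
    have hDD : μ * n ≤ δ ^ 3 / 100 * (μ * n) * D := by
      have h1 : 1 ≤ δ ^ 3 / 100 * D := by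
        rw [div_le_iff₀ hδ3] at hD1
        linarith
      have h2 : 0 < μ * n := by positivity
      nlinarith
    obtain ⟨U, hU, hUc, F, hF⟩ := grow D h.le hμ (cls f c) hne (hexp c) hDD (cls f c).card
      (Finset.card_pos.mpr hne) le_rfl
    have : U = cls f c := Finset.eq_of_subset_of_card_le hU hUc.ge
    exact ⟨F, this ▸ hF⟩
  choose! Fc hFc using hgrow
  set F₀ : Finset (V × V) := (univ.image f).biUnion Fc with hF₀
  have h₀ : ∀ x y, f x = f y → (gr F₀).Reachable x y := by
    intro x y hxy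
    have hc : f x ∈ univ.image f := mem_image_of_mem f (mem_univ x)
    have h1 := (hFc (f x) hc).conn x (mem_cls.mpr rfl) y (mem_cls.mpr hxy.symm)
    exact h1.mono (gr_mono (subset_biUnion_of_mem Fc hc))
  have hcut : ∀ S : Finset V, S.Nonempty → S ≠ univ → 0 < ee w S Sᶜ := fun S h1 h2 =>
    lt_of_lt_of_le hK (h.cut S h1 h2)
  have hmpos : 1 ≤ (univ.image f).card := by
    obtain ⟨x⟩ := (inferInstance : Nonempty V)
    exact Finset.card_pos.mpr ⟨f x, mem_image_of_mem f (mem_univ x)⟩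
  obtain ⟨J, hJ, hJc, Q, hQ, hQw, hconn⟩ := connect f F₀ h₀ hcut (univ.image f).card hmpos le_rfl
  have hJe : J = univ.image f := Finset.eq_of_subset_of_card_le hJ hJc.ge
  refine ⟨F₀ ∪ Q, ?_, ?_, ?_⟩
  · intro p hp
    rw [mem_union] at hp
    rcases hp with hp | hp
    · rw [hF₀, mem_biUnion] at hp
      obtain ⟨c, hc, hp⟩ := hp
      exact ((hFc c hc).mem p hp).2.2
    · exact hQw p hp
  · refine ⟨fun x y => hconn x y ?_ ?_⟩ <;>
    · rw [hJe]
      exact mem_image_of_mem f (mem_univ _)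
  · intro S hS hSu
    set E : ℝ := ee w S Sᶜ with hE
    have hKE : K ≤ E := h.cut S hS hSu
    set M : ℝ := ∑ c ∈ univ.image f,
      min ((S ∩ cls f c).card : ℝ) ((cls f c \ (S ∩ cls f c)).card : ℝ) with hM
    have hM0 : 0 ≤ M := Finset.sum_nonneg fun c _ => le_min (Nat.cast_nonneg _) (Nat.cast_nonneg _)
    -- crossing pairs
    have h1 : (((F₀ ∪ Q).filter (cr S)).card : ℝ) ≤ ((D : ℝ) + 1) * M +
        ((univ.image f).card : ℝ) := by
      have h2 : ((F₀ ∪ Q).filter (cr S)).card ≤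
          ∑ c ∈ univ.image f, ((Fc c).filter (cr S)).card + Q.card := by
        rw [filter_union]
        refine (card_union_le _ _).trans (add_le_add ?_ (card_filter_le _ _))
        rw [hF₀, filter_biUnion]
        exact card_biUnion_le
      have h3 : (((F₀ ∪ Q).filter (cr S)).card : ℝ) ≤
          ∑ c ∈ univ.image f, (((Fc c).filter (cr S)).card : ℝ) + Q.card := by
        exact_mod_cast h2
      have h4 : ∑ c ∈ univ.image f, (((Fc c).filter (cr S)).card : ℝ) ≤ ((D : ℝ) + 1) * M := by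
        rw [hM, Finset.mul_sum]
        exact Finset.sum_le_sum fun c hc => cross (hFc c hc) S
      have h5 : (Q.card : ℝ) ≤ ((univ.image f).card : ℝ) := by
        have : Q.card ≤ (univ.image f).card := by omega
        exact_mod_cast this
      linarith
    have h2 : δ ^ 3 / 100 * (μ * n) * M ≤ E := by
      refine le_trans ?_ (ee_split h.nonneg f S)
      rw [hM, Finset.mul_sum]
      refine Finset.sum_le_sum fun c _ => ?_
      by_cases hA : (S ∩ cls f c).Nonempty
      · by_cases hA2 : S ∩ cls f c = cls f c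
        · rw [hA2, sdiff_self]
          change _ * min _ (((∅ : Finset V).card : ℕ) : ℝ) ≤ _
          rw [card_empty, Nat.cast_zero, min_eq_right (Nat.cast_nonneg _), mul_zero]
          exact ee_nonneg h.nonneg _ _
        · exact hexp c _ inter_subset_right hA hA2
      · rw [not_nonempty_iff_eq_empty] at hA
        rw [hA, card_empty, Nat.cast_zero, min_eq_left (Nat.cast_nonneg _), mul_zero]
        exact ee_nonneg h.nonneg _ _
    -- `K ≤ μ n`
    have h3 : K ≤ μ * n := by
      obtain ⟨x⟩ := (inferInstance : Nonempty V)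
      have h4 := h.cut {x} (singleton_nonempty x) (fun h' => by
        have : Fintype.card V = 1 := by
          rw [← Finset.card_univ, ← h', card_singleton]
        omega)
      unfold ee at h4
      rw [Finset.sum_singleton] at h4
      calc K ≤ ∑ v ∈ ({x} : Finset V)ᶜ, w x v := h4
        _ ≤ ∑ v ∈ ({x} : Finset V)ᶜ, μ := Finset.sum_le_sum fun v _ => h.le x v
        _ = (({x} : Finset V)ᶜ.card : ℝ) * μ := by rw [Finset.sum_const, nsmul_eq_mul]
        _ ≤ n * μ := by
            have h5 : ((({x} : Finset V)ᶜ).card : ℝ) ≤ n := by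
              rw [hn]
              exact_mod_cast Finset.card_le_univ _
            exact mul_le_mul_of_nonneg_right h5 hμ.le
        _ = μ * n := mul_comm _ _
    exact h1.trans (fin_num hδ hδ1 hK hKE hM0 h2 h3 hD2 hm)

end

end Vale.Agent.P061
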