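import Vale.Agent.P061.Part4
import Vale.Agent.P061.Defs

/-!
# P061: dense graphs, thin spanning trees
-/

set_option autoImplicit false

namespace Vale.Agent.P061

open Finset

section
variable {V E : Type} [Fintype V] [DecidableEq V] [Fintype E]

/-- multiplicities -/
noncomputable def wt (G : MGraph V E) (u v : V) : ℝ := (({e | G.ends e = s(u, v)} : Set E).ncard : ℝ)

omit [Fintype E] [DecidableEq V] in
lemma cut_eq_aux (G : MGraph V E) (S : Finset V) :
    G.cut (S : Set V) = {e | ∃ u ∈ S, ∃ v ∈ (univ : Finset V), v ∉ S ∧ G.ends e = s(u, v)} := by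
  ext e
  simp only [MGraph.cut, Set.mem_ofPred_eq, mem_coe, mem_univ, true_and]
  constructor
  · rintro ⟨u, v, h, hu, hv⟩
    exact ⟨u, hu, v, hv, h⟩
  · rintro ⟨u, hu, v, hv, h⟩
    exact ⟨u, v, h, hu, hv⟩

lemma cut_eq (G : MGraph V E) (S : Finset V) :
    ((G.cut (S : Set V)).ncard : ℝ) = ee (wt G) S Sᶜ := by
  classical
  have h1 : G.cut (S : Set V) =
      (((S ×ˢ Sᶜ).biUnion fun p : V × V => univ.filter fun e => G.ends e = s(p.1, p.2) :
        Finset E) : Set E) := by
    rw [cut_eq_aux]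
    ext e
    simp only [Set.mem_ofPred_eq, mem_coe, mem_biUnion, mem_product, mem_compl, mem_filter,
      mem_univ, true_and, Prod.exists]
    constructor
    · rintro ⟨u, hu, v, hv, h⟩
      exact ⟨u, v, ⟨hu, hv⟩, h⟩
    · rintro ⟨u, v, ⟨hu, hv⟩, h⟩
      exact ⟨u, hu, v, hv, h⟩
  rw [h1, Set.ncard_coe_finset, card_biUnion]
  · rw [Finset.sum_product]
    unfold ee wt
    push_cast
    refine Finset.sum_congr rfl fun u _ => Finset.sum_congr rfl fun v _ => ?_
    congr 1
    rw [← Set.ncard_coe_finset]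
    congr 1
    ext e
    simp
  · intro p hp q hq hpq
    rw [mem_coe, Finset.mem_product, mem_compl] at hp hq
    show Disjoint (univ.filter fun e => G.ends e = s(p.1, p.2))
      (univ.filter fun e => G.ends e = s(q.1, q.2))
    rw [Finset.disjoint_left]
    intro e he he'
    replace he := (mem_filter.mp he).2
    replace he' := (mem_filter.mp he').2
    rw [he, Sym2.eq_iff] at he'
    rcases he' with ⟨h2, h3⟩ | ⟨h2, h3⟩
    · exact hpq (Prod.ext h2 h3)
    · exact hq.2 (h2 ▸ hp.1)

omit [Fintype V] [DecidableEq V] [Fintype E] in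
lemma wt_symm (G : MGraph V E) (u v : V) : wt G u v = wt G v u := by
  unfold wt
  rw [Sym2.eq_swap]

omit [Fintype V] [DecidableEq V] in
lemma wt_pos (G : MGraph V E) {u v : V} (h : 0 < wt G u v) : ∃ e, G.ends e = s(u, v) := by
  unfold wt at h
  have h1 : 0 < ({e | G.ends e = s(u, v)} : Set E).ncard := by exact_mod_cast h
  obtain ⟨e, he⟩ := (Set.ncard_pos (Set.toFinite _)).mp h1
  exact ⟨e, he⟩

/-- from a connected set of pairs to a spanning tree -/
lemma tree_of (G : MGraph V E) (F : Finset (V × V)) (hF : ∀ p ∈ F, 0 < wt G p.1 p.2)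
    (hc : (gr F).Connected) : ∃ T : Set E, G.IsSpanningTree T ∧
      ∀ S : Finset V, (T ∩ G.cut (S : Set V)).ncard ≤ (F.filter (cr S)).card := by
  classical
  obtain ⟨T₀, hT₀, htree⟩ := hc.exists_isTree_le
  have hex : ∀ s : T₀.edgeSet, ∃ e : E, G.ends e = s.1 := by
    rintro ⟨s, hs⟩
    induction s with
    | h x y =>
      have hs' : T₀.Adj x y := hs
      have h1 : (gr F).Adj x y := hT₀ hs'
      rcases h1.2 with h2 | h2
      · have h3 : 0 < wt G x y := hF (x, y) h2
        obtain ⟨e, he⟩ := wt_pos G h3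
        exact ⟨e, he⟩
      · have h3 : 0 < wt G y x := hF (y, x) h2
        obtain ⟨e, he⟩ := wt_pos G h3
        exact ⟨e, he.trans Sym2.eq_swap⟩
  choose ε hε using hex
  have hinj : Function.Injective ε := fun a b hab => Subtype.ext (by rw [← hε a, ← hε b, hab])
  have hsub : G.sub (Set.range ε) = T₀ := by
    ext x y
    constructor
    · rintro ⟨_, ⟨s, rfl⟩, h⟩
      rw [hε] at h
      have := s.2
      rw [h] at this
      exact this
    · intro h
      exact ⟨ε ⟨s(x, y), h⟩, ⟨_, rfl⟩, hε _⟩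
  refine ⟨Set.range ε, ⟨?_, ?_⟩, ?_⟩
  · rw [hsub]
    exact htree.connected
  · rw [Set.ncard_range_of_injective hinj]
    exact (SimpleGraph.isTree_iff_connected_and_card.mp htree).2
  · intro S
    have hinj2 : Set.InjOn G.ends (Set.range ε ∩ G.cut (S : Set V)) := by
      rintro _ ⟨⟨a, rfl⟩, -⟩ _ ⟨⟨b, rfl⟩, -⟩ h
      rw [hε, hε] at h
      rw [Subtype.ext h]
    have himg : G.ends '' (Set.range ε ∩ G.cut (S : Set V)) ⊆
        (((F.filter (cr S)).image fun p : V × V => s(p.1, p.2) : Finset (Sym2 V)) :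
          Set (Sym2 V)) := by
      rintro _ ⟨_, ⟨⟨a, rfl⟩, u, v, h, hu, hv⟩, rfl⟩
      rw [hε] at h ⊢
      have h1 : (gr F).Adj u v := by
        apply hT₀
        have := a.2
        rw [h] at this
        exact this
      rw [mem_coe, mem_image]
      rcases h1.2 with h2 | h2
      · exact ⟨(u, v), mem_filter.mpr ⟨h2, Or.inl ⟨hu, hv⟩⟩, h.symm⟩
      · exact ⟨(v, u), mem_filter.mpr ⟨h2, Or.inr ⟨hv, hu⟩⟩, Sym2.eq_swap.trans h.symm⟩
    calc (Set.range ε ∩ G.cut (S : Set V)).ncard
        = (G.ends '' (Set.range ε ∩ G.cut (S : Set V))).ncard := hinj2.ncard_image.symm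
      _ ≤ _ := Set.ncard_le_ncard himg (Finset.finite_toSet _)
      _ = _ := Set.ncard_coe_finset _
      _ ≤ _ := card_image_le

end

/-- thin spanning trees of dense graphs -/
theorem dense {V E : Type} [Finite V] [Finite E] (G : MGraph V E) (k μ : ℕ) (hk : 1 ≤ k)
    (hV : 2 ≤ Nat.card V) (hG : G.EdgeConnected k)
    (hμ : ∀ u v : V, ({e | G.ends e = s(u, v)} : Set E).ncard ≤ μ) :
    ∃ T : Set E, G.IsSpanningTree T ∧
      G.IsThin T (11000 * ((μ : ℝ) * Nat.card V / k) ^ 6 / k) := by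
  classical
  have := Fintype.ofFinite V
  have := Fintype.ofFinite E
  rw [Nat.card_eq_fintype_card] at hV ⊢
  have hkR : (0 : ℝ) < k := by exact_mod_cast hk
  have hcut : ∀ S : Finset V, S.Nonempty → S ≠ univ → (k : ℝ) ≤ ee (wt G) S Sᶜ := by
    intro S hS hSu
    rw [← cut_eq]
    have := hG (S : Set V) (by exact_mod_cast hS) (fun h => hSu (by exact_mod_cast h))
    exact_mod_cast this
  have hle : ∀ u v, wt G u v ≤ μ := fun u v => by
    unfold wt
    exact_mod_cast hμ u v
  obtain ⟨x⟩ : Nonempty V := Fintype.card_pos_iff.mp (by omega)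
  have hkn : (k : ℝ) ≤ (μ : ℝ) * (Fintype.card V : ℝ) := by
    have h4 := hcut {x} (singleton_nonempty x) (fun h' => by
      have : Fintype.card V = 1 := by
        rw [← Finset.card_univ, ← h', card_singleton]
      omega)
    unfold ee at h4
    rw [Finset.sum_singleton] at h4
    calc (k : ℝ) ≤ ∑ v ∈ ({x} : Finset V)ᶜ, wt G x v := h4
      _ ≤ ∑ v ∈ ({x} : Finset V)ᶜ, (μ : ℝ) := Finset.sum_le_sum fun v _ => hle x v
      _ = ((({x} : Finset V)ᶜ).card : ℝ) * μ := by rw [Finset.sum_const, nsmul_eq_mul]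
      _ ≤ (Fintype.card V : ℝ) * μ := by
          have h5 : ((({x} : Finset V)ᶜ).card : ℝ) ≤ (Fintype.card V : ℝ) := by
            exact_mod_cast Finset.card_le_univ _
          exact mul_le_mul_of_nonneg_right h5 (Nat.cast_nonneg _)
      _ = _ := mul_comm _ _
  have hμn : (0 : ℝ) < (μ : ℝ) * (Fintype.card V : ℝ) := lt_of_lt_of_le hkR hkn
  have hμ0 : (0 : ℝ) < μ := by
    rcases Nat.eq_zero_or_pos μ with h | h
    · rw [h, Nat.cast_zero, zero_mul] at hμn
      exact absurd hμn (lt_irrefl _)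
    · exact_mod_cast h
  have hDn : Dn (wt G) μ k ((k : ℝ) / ((μ : ℝ) * (Fintype.card V : ℝ))) :=
    { symm := wt_symm G
      nonneg := fun u v => Nat.cast_nonneg _
      le := hle
      cut := hcut
      mu := hμ0
      d0 := by positivity
      d1 := by
        rw [div_le_one hμn]
        exact hkn
      dK := by
        rw [mul_assoc, div_mul_cancel₀ _ hμn.ne'] }
  obtain ⟨F, hF, hc, hthin⟩ := core hDn hV hkR
  obtain ⟨T, hT, hcross⟩ := tree_of G F hF hc
  refine ⟨T, hT, ?_⟩
  intro S hS hSu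
  have hST : ((S.toFinset : Finset V) : Set V) = S := Set.coe_toFinset S
  have h1 := hcross S.toFinset
  rw [hST] at h1
  have h2 := hthin S.toFinset (by
    rw [Set.toFinset_nonempty]
    exact hS) (fun h => hSu (by
    rw [← hST, h, coe_univ]))
  rw [← cut_eq, hST] at h2
  have h3 : ((T ∩ G.cut S).ncard : ℝ) ≤ ((F.filter (cr S.toFinset)).card : ℝ) := by
    exact_mod_cast h1
  refine h3.trans (h2.trans (le_of_eq ?_))
  congr 1
  congr 1
  rw [div_pow, div_pow]
  field_simp

end Vale.Agent.P061
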