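import Vale.Agent.P061.Defs

/-!
# P061 (partial): the constant in the strong thin tree conjecture is at least `4`
-/

set_option autoImplicit false

namespace Vale.Agent.P061

open Set

variable {V E : Type}

/-- a spanning tree is `2`-coloured by some `col`, and contains no two parallel edges -/
lemma tree_col [Finite V] [Finite E] (G : MGraph V E) {T : Set E} (hT : G.IsSpanningTree T) :
    (∃ col : V → Bool, ∀ e ∈ T, ∀ u v, G.ends e = s(u, v) → col u ≠ col v) ∧
      InjOn G.ends T := by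
  obtain ⟨hc, hcard⟩ := hT
  have hE : (G.sub T).edgeSet = G.ends '' T := by
    ext e
    induction e with
    | h u v =>
      rw [SimpleGraph.mem_edgeSet]
      constructor
      · rintro ⟨e, he, h⟩
        exact ⟨e, he, h⟩
      · rintro ⟨e, he, h⟩
        exact ⟨e, he, h⟩
  have h1 : Nat.card V ≤ Nat.card (G.sub T).edgeSet + 1 := hc.card_vert_le_card_edgeSet_add_one
  have h2 : Nat.card (G.sub T).edgeSet = (G.ends '' T).ncard := by
    rw [hE]
    rfl
  have h3 : (G.ends '' T).ncard ≤ T.ncard := ncard_image_le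
  have h4 : (G.ends '' T).ncard = T.ncard := by omega
  have htree : (G.sub T).IsTree :=
    SimpleGraph.isTree_iff_connected_and_card.mpr ⟨hc, by omega⟩
  refine ⟨?_, injOn_of_ncard_image_eq h4⟩
  obtain ⟨r⟩ := hc.nonempty
  refine ⟨fun v => decide (htree.coloringTwoOfVert r v = 0), fun e he u v h => ?_⟩
  have hadj : (G.sub T).Adj u v := ⟨e, he, h⟩
  have hne := (htree.coloringTwoOfVert r).valid hadj
  intro heq
  apply hne
  have heq' : (htree.coloringTwoOfVert r u = 0) ↔ (htree.coloringTwoOfVert r v = 0) := by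
    simpa using heq
  omega

/-- edges of the example: the complete graph on `{0, …, k}` and `k` parallel edges between `i` and
`i + 1` for `k ≤ i` -/
abbrev Ed (k n : ℕ) :=
  {p : Fin n × Fin n // p.1 < p.2 ∧ (p.2 : ℕ) ≤ k} ⊕ ({i : Fin n // k ≤ (i : ℕ) ∧ (i : ℕ) + 1 < n} × Fin k)

/-- the example -/
def ex (k n : ℕ) : MGraph (Fin n) (Ed k n) where
  ends
    | Sum.inl p => s(p.1.1, p.1.2)
    | Sum.inr (i, _) => s(i.1, ⟨(i.1 : ℕ) + 1, i.2.2⟩)
  loopless := by
    rintro (⟨⟨a, b⟩, h1, h2⟩ | ⟨⟨i, h1, h2⟩, j⟩)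
    · simp only [Sym2.mk_isDiag_iff]
      exact ne_of_lt h1
    · simp only [Sym2.mk_isDiag_iff]
      intro h
      have := congrArg Fin.val h
      simp at this


lemma ex_inl {k n : ℕ} (p : {p : Fin n × Fin n // p.1 < p.2 ∧ (p.2 : ℕ) ≤ k}) :
    (ex k n).ends (Sum.inl p) = s(p.1.1, p.1.2) := rfl

lemma ex_inr {k n : ℕ} (i : {i : Fin n // k ≤ (i : ℕ) ∧ (i : ℕ) + 1 < n}) (j : Fin k) :
    (ex k n).ends (Sum.inr (i, j)) = s(i.1, ⟨(i.1 : ℕ) + 1, i.2.2⟩) := rfl

/-- the edge of the clique between two different vertices -/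
lemma ex_edge {k n : ℕ} (a b : Fin n) (hab : a ≠ b) (ha : (a : ℕ) ≤ k) (hb : (b : ℕ) ≤ k) :
    ∃ e : Ed k n, (ex k n).ends e = s(a, b) := by
  rcases lt_or_gt_of_ne hab with h | h
  · exact ⟨Sum.inl ⟨(a, b), h, hb⟩, rfl⟩
  · exact ⟨Sum.inl ⟨(b, a), h, ha⟩, Sym2.eq_swap⟩

/-- all vertices above `k` are on the side of `k` if no bundle is cut -/
lemma same_side {k n : ℕ} (hkn : k < n) (S : Set (Fin n))
    (h : ∀ i : {i : Fin n // k ≤ (i : ℕ) ∧ (i : ℕ) + 1 < n},
      (i.1 ∈ S ↔ (⟨(i.1 : ℕ) + 1, i.2.2⟩ : Fin n) ∈ S)) (x : Fin n) (hx : k ≤ (x : ℕ)) :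
    x ∈ S ↔ (⟨k, hkn⟩ : Fin n) ∈ S := by
  obtain ⟨x, hxn⟩ := x
  obtain ⟨m, rfl⟩ := Nat.exists_eq_add_of_le hx
  induction m with
  | zero => rfl
  | succ m ih =>
    have h1 : k + m < n := by omega
    rw [← ih h1 (Nat.le_add_right k m)]
    exact (h ⟨⟨k + m, h1⟩, Nat.le_add_right k m, hxn⟩).symm

lemma ex_conn {k n : ℕ} (hkn : k < n) : (ex k n).EdgeConnected k := by
  classical
  intro S hS hS'
  by_cases hb : ∀ i : {i : Fin n // k ≤ (i : ℕ) ∧ (i : ℕ) + 1 < n},
      (i.1 ∈ S ↔ (⟨(i.1 : ℕ) + 1, i.2.2⟩ : Fin n) ∈ S)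
  · -- the clique is cut
    have hu : ∃ u : Fin n, (u : ℕ) ≤ k ∧ u ∈ S := by
      obtain ⟨x, hx⟩ := hS
      rcases le_total (x : ℕ) k with h | h
      · exact ⟨x, h, hx⟩
      · exact ⟨⟨k, hkn⟩, le_rfl, (same_side hkn S hb x h).mp hx⟩
    have hv : ∃ v : Fin n, (v : ℕ) ≤ k ∧ v ∉ S := by
      obtain ⟨x, hx⟩ := (ne_univ_iff_exists_notMem S).mp hS'
      rcases le_total (x : ℕ) k with h | h
      · exact ⟨x, h, hx⟩
      · exact ⟨⟨k, hkn⟩, le_rfl, fun h' => hx ((same_side hkn S hb x h).mpr h')⟩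
    obtain ⟨u, huk, huS⟩ := hu
    obtain ⟨v, hvk, hvS⟩ := hv
    set W : Set (Fin n) := {w | (w : ℕ) ≤ k ∧ w ≠ u} with hW
    set φ : Fin n → Sym2 (Fin n) := fun w => if w ∈ S then s(w, v) else s(u, w) with hφ
    have hsub : φ '' W ⊆ (ex k n).ends '' (ex k n).cut S := by
      rintro _ ⟨w, ⟨hwk, hwu⟩, rfl⟩
      simp only [hφ]
      split_ifs with hw
      · obtain ⟨e, he⟩ := ex_edge (k := k) w v (fun h => hvS (h ▸ hw)) hwk hvk
        exact ⟨e, ⟨w, v, he, hw, hvS⟩, he⟩
      · obtain ⟨e, he⟩ := ex_edge (k := k) u w (fun h => hwu h.symm) huk hwk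
        exact ⟨e, ⟨u, w, he, huS, hw⟩, he⟩
    have hinj : InjOn φ W := by
      intro a ha b hb' hab
      simp only [hφ] at hab
      split_ifs at hab with h1 h2 h2
      · rw [Sym2.eq_iff] at hab
        rcases hab with ⟨h, -⟩ | ⟨h, h'⟩
        · exact h
        · exact absurd (h ▸ h1) hvS
      · rw [Sym2.eq_iff] at hab
        rcases hab with ⟨h, -⟩ | ⟨h, -⟩
        · exact absurd h ha.2
        · exact absurd (h ▸ h1) h2
      · rw [Sym2.eq_iff] at hab
        rcases hab with ⟨h, -⟩ | ⟨-, h⟩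
        · exact absurd h.symm hb'.2
        · exact absurd (h ▸ h2) h1
      · rw [Sym2.eq_iff] at hab
        rcases hab with ⟨-, h⟩ | ⟨h, h'⟩
        · exact h
        · exact absurd h'.symm (fun h'' => ha.2 h''.symm)
    have hWk : W.ncard = k := by
      have h1 : insert u W = {w : Fin n | (w : ℕ) ≤ k} := by
        ext w
        simp only [hW, mem_insert_iff, mem_ofPred_eq]
        constructor
        · rintro (rfl | ⟨h, -⟩)
          · exact huk
          · exact h
        · intro h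
          by_cases hw : w = u
          · exact Or.inl hw
          · exact Or.inr ⟨h, hw⟩
      have h2 : (insert u W).ncard = W.ncard + 1 := ncard_insert_of_notMem (fun h => h.2 rfl)
      have h3 : ({w : Fin n | (w : ℕ) ≤ k} : Set (Fin n)).ncard = k + 1 := by
        have h4 : ({w : Fin n | (w : ℕ) ≤ k} : Set (Fin n)) =
            (Finset.univ.filter fun w : Fin n => (w : ℕ) < k + 1 : Finset (Fin n)) := by
          ext w
          simp [Nat.lt_succ_iff]
        rw [h4, ncard_coe_finset, Fin.card_filter_val_lt]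
        omega
      rw [h1, h3] at h2
      omega
    calc k = W.ncard := hWk.symm
      _ = (φ '' W).ncard := (hinj.ncard_image).symm
      _ ≤ ((ex k n).ends '' (ex k n).cut S).ncard := ncard_le_ncard hsub
      _ ≤ ((ex k n).cut S).ncard := ncard_image_le
  · push Not at hb
    obtain ⟨i, hi⟩ := hb
    have hsub : (fun j : Fin k => (Sum.inr (i, j) : Ed k n)) '' univ ⊆ (ex k n).cut S := by
      rintro _ ⟨j, -, rfl⟩
      rcases hi with ⟨h1, h2⟩ | ⟨h1, h2⟩
      · exact ⟨_, _, ex_inr i j, h1, h2⟩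
      · exact ⟨_, _, (ex_inr i j).trans Sym2.eq_swap, h2, h1⟩
    calc k = (univ : Set (Fin k)).ncard := by rw [ncard_univ, Nat.card_fin]
      _ = ((fun j : Fin k => (Sum.inr (i, j) : Ed k n)) '' univ).ncard := by
          refine (ncard_image_of_injOn ?_).symm
          intro a _ b _ hab
          simpa using hab
      _ ≤ ((ex k n).cut S).ncard := ncard_le_ncard hsub

/-- every spanning tree of the example crosses some cut with at most `(k+1)²/4` edges at least
`k` times -/
lemma ex_thin {k n : ℕ} (hk : 1 ≤ k) (hkn : k < n) {T : Set (Ed k n)}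
    (hT : (ex k n).IsSpanningTree T) :
    ∃ S : Set (Fin n), S.Nonempty ∧ S ≠ univ ∧ k ≤ (T ∩ (ex k n).cut S).ncard ∧
      4 * ((ex k n).cut S).ncard ≤ (k + 1) ^ 2 := by
  classical
  obtain ⟨⟨col, hcol⟩, hinj⟩ := tree_col (ex k n) hT
  set K : Fin n := ⟨k, hkn⟩ with hK
  set S : Set (Fin n) := {x | col (min x K) = true} with hS
  set Tl : Set (Ed k n) := {e ∈ T | ∃ p, e = Sum.inl p} with hTl
  set Tr : Set (Ed k n) := {e ∈ T | ∃ q, e = Sum.inr q} with hTr
  have hTlr : T = Tl ∪ Tr := by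
    ext e
    constructor
    · intro he
      rcases e with p | q
      · exact Or.inl ⟨he, p, rfl⟩
      · exact Or.inr ⟨he, q, rfl⟩
    · rintro (⟨he, -⟩ | ⟨he, -⟩) <;> exact he
  have hle : ∀ (x : Fin n), (x : ℕ) ≤ k → min x K = x := fun x hx => min_eq_left (by
    show (x : ℕ) ≤ k
    exact hx)
  -- number of tree edges in the bundles
  have hTr_card : Tr.ncard ≤ n - 1 - k := by
    set f : Ed k n → ℕ := fun e => Sum.elim (fun _ => 0) (fun q => (q.1.1 : ℕ)) e with hf
    have h1 : f '' Tr ⊆ (Finset.Ico k (n - 1) : Finset ℕ) := by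
      rintro _ ⟨e, ⟨-, ⟨i, j⟩, rfl⟩, rfl⟩
      have h2 := i.2
      simp only [hf, Sum.elim_inr, Finset.coe_Ico, mem_Ico]
      omega
    have h2 : InjOn f Tr := by
      rintro _ ⟨h1, ⟨i, j⟩, rfl⟩ _ ⟨h2, ⟨i', j'⟩, rfl⟩ h
      apply hinj h1 h2
      have h3 : i = i' := by
        apply Subtype.ext
        apply Fin.ext
        exact h
      subst h3
      rfl
    calc Tr.ncard = (f '' Tr).ncard := (h2.ncard_image).symm
      _ ≤ ((Finset.Ico k (n - 1) : Finset ℕ) : Set ℕ).ncard := ncard_le_ncard h1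
      _ = n - 1 - k := by rw [ncard_coe_finset, Nat.card_Ico]
  have hTl_card : k ≤ Tl.ncard := by
    have h1 : T.ncard ≤ Tl.ncard + Tr.ncard := by
      conv_lhs => rw [hTlr]
      exact ncard_union_le _ _
    have h2 := hT.2
    rw [Nat.card_fin] at h2
    omega
  have hTl_sub : Tl ⊆ T ∩ (ex k n).cut S := by
    rintro e ⟨he, ⟨⟨a, b⟩, h1, h2⟩, rfl⟩
    refine ⟨he, ?_⟩
    have hb : (b : ℕ) ≤ k := h2
    have hab : (a : ℕ) < b := h1
    have hne := hcol _ he a b rfl
    have ha' := hle a (by omega)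
    have hb' := hle b hb
    rcases Bool.eq_false_or_eq_true (col a) with h | h
    · refine ⟨a, b, rfl, ?_, ?_⟩
      · show col (min a K) = true
        rw [ha', h]
      · show ¬ col (min b K) = true
        rw [hb']
        intro h'
        exact hne (h.trans h'.symm)
    · refine ⟨b, a, Sym2.eq_swap, ?_, ?_⟩
      · show col (min b K) = true
        rw [hb']
        rcases Bool.eq_false_or_eq_true (col b) with h' | h'
        · exact h'
        · exact absurd (h.trans h'.symm) hne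
      · show ¬ col (min a K) = true
        rw [ha', h]
        simp
  have hcutT : k ≤ (T ∩ (ex k n).cut S).ncard := hTl_card.trans (ncard_le_ncard hTl_sub)
  obtain ⟨e, -, u, v, -, hu, hv⟩ : (T ∩ (ex k n).cut S).Nonempty := by
    rw [← ncard_pos]
    omega
  refine ⟨S, ⟨u, hu⟩, fun h => hv (h ▸ mem_univ v), hcutT, ?_⟩
  -- the size of the cut
  set A : Finset (Fin n) := Finset.univ.filter fun x => (x : ℕ) ≤ k ∧ col x = true with hA
  set B : Finset (Fin n) := Finset.univ.filter fun x => (x : ℕ) ≤ k ∧ ¬ col x = true with hB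
  have hAB : A.card + B.card = k + 1 := by
    have h1 : A ∪ B = Finset.univ.filter fun x : Fin n => (x : ℕ) < k + 1 := by
      ext x
      simp only [hA, hB, Finset.mem_union, Finset.mem_filter, Finset.mem_univ, true_and,
        Nat.lt_succ_iff]
      tauto
    have h2 : Disjoint A B := by
      rw [Finset.disjoint_left]
      intro x hx hx'
      exact (Finset.mem_filter.mp hx').2.2 (Finset.mem_filter.mp hx).2.2
    rw [← Finset.card_union_of_disjoint h2, h1, Fin.card_filter_val_lt]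
    omega
  have hno : ∀ q, (Sum.inr q : Ed k n) ∉ (ex k n).cut S := by
    rintro ⟨i, j⟩ ⟨x, y, h, hx, hy⟩
    rw [ex_inr, Sym2.eq_iff] at h
    have h1 : min i.1 K = K := min_eq_right i.2.1
    have h2 : min (⟨(i.1 : ℕ) + 1, i.2.2⟩ : Fin n) K = K := min_eq_right (by
      show k ≤ (i.1 : ℕ) + 1
      have := i.2.1
      omega)
    have hx' : col (min x K) = true := hx
    have hy' : ¬ col (min y K) = true := hy
    rcases h with ⟨rfl, rfl⟩ | ⟨rfl, rfl⟩
    · rw [h1] at hx'
      rw [h2] at hy'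
      exact hy' hx'
    · rw [h2] at hx'
      rw [h1] at hy'
      exact hy' hx'
  have hinj2 : InjOn (ex k n).ends ((ex k n).cut S) := by
    rintro (⟨⟨a, b⟩, h1, h2⟩ | q) he (⟨⟨a', b'⟩, h1', h2'⟩ | q') he' h
    · rw [ex_inl, ex_inl, Sym2.eq_iff] at h
      have hab : a < b := h1
      have hab' : a' < b' := h1'
      rcases h with ⟨h3, h4⟩ | ⟨h3, h4⟩
      · have h3' : a = a' := h3
        have h4' : b = b' := h4
        subst h3' h4'
        rfl
      · have h3' : a = b' := h3
        have h4' : b = a' := h4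
        subst h3' h4'
        exact absurd hab (not_lt.mpr hab'.le)
    · exact absurd he' (hno q')
    · exact absurd he (hno q)
    · exact absurd he (hno q)
  have himg : (ex k n).ends '' (ex k n).cut S ⊆
      ((A ×ˢ B).image fun p : Fin n × Fin n => s(p.1, p.2) : Finset (Sym2 (Fin n))) := by
    rintro _ ⟨(⟨⟨a, b⟩, h1, h2⟩ | q), he, rfl⟩
    · obtain ⟨x, y, h, hx, hy⟩ := he
      have hab : (a : ℕ) < b := h1
      have hbk : (b : ℕ) ≤ k := h2
      have hx' : col (min x K) = true := hx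
      have hy' : ¬ col (min y K) = true := hy
      rw [h]
      rw [ex_inl, Sym2.eq_iff] at h
      have hxy : (x : ℕ) ≤ k ∧ (y : ℕ) ≤ k := by
        rcases h with ⟨h3, h4⟩ | ⟨h3, h4⟩
        · have h3' : a = x := h3
          have h4' : b = y := h4
          subst h3' h4'
          omega
        · have h3' : a = y := h3
          have h4' : b = x := h4
          subst h3' h4'
          omega
      rw [hle x hxy.1] at hx'
      rw [hle y hxy.2] at hy'
      rw [Finset.mem_coe, Finset.mem_image]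
      refine ⟨(x, y), ?_, rfl⟩
      rw [Finset.mem_product]
      exact ⟨Finset.mem_filter.mpr ⟨Finset.mem_univ _, hxy.1, hx'⟩,
        Finset.mem_filter.mpr ⟨Finset.mem_univ _, hxy.2, hy'⟩⟩
    · exact absurd he (hno q)
  have h5 : ((ex k n).cut S).ncard ≤ A.card * B.card := by
    calc ((ex k n).cut S).ncard = ((ex k n).ends '' (ex k n).cut S).ncard :=
          (hinj2.ncard_image).symm
      _ ≤ _ := ncard_le_ncard himg
      _ = _ := ncard_coe_finset _
      _ ≤ (A ×ˢ B).card := Finset.card_image_le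
      _ = A.card * B.card := Finset.card_product _ _
  have h6 : 4 * (A.card * B.card) ≤ (A.card + B.card) ^ 2 := by
    nlinarith [sq_nonneg ((A.card : ℤ) - B.card), sq_nonneg (A.card - B.card : ℤ),
      four_mul_le_sq_add A.card B.card]
  rw [hAB] at h6
  omega

/-- the example has no `α`-thin spanning tree for `α < 4k/(k+1)²`. -/
theorem ex_bound {k n : ℕ} (hk : 1 ≤ k) (hkn : k < n) {T : Set (Ed k n)}
    (hT : (ex k n).IsSpanningTree T) {α : ℝ} (hα : (ex k n).IsThin T α) :
    4 * (k : ℝ) / ((k : ℝ) + 1) ^ 2 ≤ α := by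
  obtain ⟨S, hS, hS', h1, h2⟩ := ex_thin hk hkn hT
  have h3 := hα S hS hS'
  have hkpos : (0 : ℝ) < k := by exact_mod_cast hk
  have h1' : (k : ℝ) ≤ α * (((ex k n).cut S).ncard : ℝ) := le_trans (by exact_mod_cast h1) h3
  have h2' : 4 * (((ex k n).cut S).ncard : ℝ) ≤ ((k : ℝ) + 1) ^ 2 := by exact_mod_cast h2
  have hc : (0 : ℝ) ≤ (((ex k n).cut S).ncard : ℝ) := Nat.cast_nonneg _
  have hαpos : 0 < α := by
    by_contra h
    push Not at h
    nlinarith
  rw [div_le_iff₀ (by positivity)]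
  nlinarith

end Vale.Agent.P061
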